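import Vale.Agent.P335.Defs
import Vale.Agent.P335.Chain
import Vale.Agent.P335.Bochner

namespace Vale.Agent.Results.P335.KTV

open Vale.Agent.P335

theorem result :
    (∀ n : ℕ, 4 ≤ n → ∀ d : Fin n → ℕ, Nonempty (Realization d) →
      mixingTime d ≤ ((n ^ 6 : ℕ) : ℕ∞)) ∧
    ∃ p : Polynomial ℕ, ∀ n : ℕ, 4 ≤ n → ∀ d : Fin n → ℕ, Nonempty (Realization d) →
      mixingTime d ≤ ((p.eval n : ℕ) : ℕ∞) := by
  have h : ∀ n : ℕ, 4 ≤ n → ∀ d : Fin n → ℕ, Nonempty (Realization d) →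
      mixingTime d ≤ ((n ^ 6 : ℕ) : ℕ∞) :=
    fun n hn d hne => mixing_of_poincare hn d hne (poincare d)
  refine ⟨h, Polynomial.X ^ 6, fun n hn d hne => ?_⟩
  simpa using h n hn d hne

end Vale.Agent.Results.P335.KTV
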